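import Mathlib

/-!
# P290, package F2-DENS

Let `M` be an integral symmetric nondegenerate Gram matrix, with a nonzero isotropic integral
vector and three integral vectors spanning a positive definite space. If `c` is a holomorphic curve
of period vectors (`c.c = 0`, `c.c̄ > 0` at the base point) whose derivative at the base point is not
a multiple of `c`, then arbitrarily close to the base point there is a parameter `lam` and a nonzero
integral isotropic vector orthogonal to `c lam`.
-/

open Filter Topology Metric

namespace Vale.Agent.P290.H726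

variable {ι : Type*} [Fintype ι]

/-- The symmetric bilinear form with integer Gram matrix `M`, over any commutative ring. -/
def bil {R : Type*} [CommRing R] (M : Matrix ι ι ℤ) (x y : ι → R) : R :=
  ∑ i, ∑ j, (M i j : R) * x i * y j

section algebra
variable {R : Type*} [CommRing R] (M : Matrix ι ι ℤ)

theorem bil_add_left (x y z : ι → R) : bil M (x + y) z = bil M x z + bil M y z := by
  simp only [bil, Pi.add_apply, mul_add, add_mul, Finset.sum_add_distrib]

theorem bil_add_right (x y z : ι → R) : bil M x (y + z) = bil M x y + bil M x z := by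
  simp only [bil, Pi.add_apply, mul_add, Finset.sum_add_distrib]

theorem bil_smul_left (a : R) (x y : ι → R) : bil M (a • x) y = a * bil M x y := by
  simp only [bil, Pi.smul_apply, smul_eq_mul, Finset.mul_sum]
  refine Finset.sum_congr rfl fun i _ => Finset.sum_congr rfl fun j _ => by ring

theorem bil_smul_right (a : R) (x y : ι → R) : bil M x (a • y) = a * bil M x y := by
  simp only [bil, Pi.smul_apply, smul_eq_mul, Finset.mul_sum]
  refine Finset.sum_congr rfl fun i _ => Finset.sum_congr rfl fun j _ => by ring

theorem bil_neg_right (x y : ι → R) : bil M x (-y) = - bil M x y := by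
  have := bil_smul_right M (-1 : R) x y
  simpa using this

theorem bil_neg_left (x y : ι → R) : bil M (-x) y = - bil M x y := by
  have := bil_smul_left M (-1 : R) x y
  simpa using this

theorem bil_sub_left (x y z : ι → R) : bil M (x - y) z = bil M x z - bil M y z := by
  rw [sub_eq_add_neg, bil_add_left, bil_neg_left, sub_eq_add_neg]

theorem bil_sub_right (x y z : ι → R) : bil M x (y - z) = bil M x y - bil M x z := by
  rw [sub_eq_add_neg, bil_add_right, bil_neg_right, sub_eq_add_neg]

theorem bil_zero_left (x : ι → R) : bil M 0 x = 0 := by simp [bil]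

theorem bil_zero_right (x : ι → R) : bil M x 0 = 0 := by simp [bil]

theorem bil_symm (hM : ∀ i j, M i j = M j i) (x y : ι → R) : bil M x y = bil M y x := by
  unfold bil
  rw [Finset.sum_comm]
  refine Finset.sum_congr rfl fun i _ => Finset.sum_congr rfl fun j _ => ?_
  rw [hM j i]; ring

theorem bil_map {S : Type*} [CommRing S] (f : R →+* S) (x y : ι → R) :
    bil M (fun i => f (x i)) (fun i => f (y i)) = f (bil M x y) := by
  simp only [bil, map_sum, map_mul, map_intCast]

end algebra

section real
variable (M : Matrix ι ι ℤ)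

theorem bil_intCast_real (x y : ι → ℤ) :
    bil M (fun i => (x i : ℝ)) (fun i => (y i : ℝ)) = ((bil M x y : ℤ) : ℝ) :=
  bil_map M (Int.castRingHom ℝ) x y

theorem bil_intCast_complex (x y : ι → ℤ) :
    bil M (fun i => (x i : ℂ)) (fun i => (y i : ℂ)) = ((bil M x y : ℤ) : ℂ) :=
  bil_map M (Int.castRingHom ℂ) x y

theorem bil_ofReal (x y : ι → ℝ) :
    bil M (fun i => (x i : ℂ)) (fun i => (y i : ℂ)) = ((bil M x y : ℝ) : ℂ) :=
  bil_map M Complex.ofRealHom x y

/-- Nondegeneracy passes from `ℤ` to `ℝ`. -/
theorem nondeg_real [DecidableEq ι] (hM : ∀ i j, M i j = M j i)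
    (hnd : ∀ x : ι → ℤ, (∀ y : ι → ℤ, bil M x y = 0) → x = 0)
    (x : ι → ℝ) (hx : ∀ y : ι → ℝ, bil M x y = 0) : x = 0 := by
  classical
  have hdet : M.det ≠ 0 := by
    intro h0
    obtain ⟨v, hv, hMv⟩ := Matrix.exists_mulVec_eq_zero_iff.mpr h0
    apply hv
    apply hnd
    intro y
    rw [bil_symm M hM]
    unfold bil
    refine Finset.sum_eq_zero fun i _ => ?_
    have h1 : ∑ j, M i j * v j = 0 := by
      have := congrFun hMv i
      simpa [Matrix.mulVec, dotProduct] using this
    simp only [Int.cast_id]
    calc ∑ j, M i j * y i * v j = y i * ∑ j, M i j * v j := by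
          rw [Finset.mul_sum]
          refine Finset.sum_congr rfl fun j _ => ?_
          ring
      _ = 0 := by rw [h1, mul_zero]
  have hdet' : (M.map (Int.castRingHom ℝ)).det ≠ 0 := by
    have : (M.map (Int.castRingHom ℝ)).det = ((M.det : ℤ) : ℝ) := by
      have := (RingHom.map_det (Int.castRingHom ℝ) M).symm
      simpa [RingHom.mapMatrix_apply] using this
    rw [this]
    exact_mod_cast hdet
  apply Matrix.eq_zero_of_mulVec_eq_zero hdet'
  ext i
  have h2 := hx (Pi.single i 1)
  rw [bil_symm M hM] at h2
  simp only [bil, Pi.single_apply, mul_ite, mul_one, mul_zero, ite_mul, zero_mul] at h2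
  simp only [Matrix.mulVec, dotProduct, Matrix.map_apply, Pi.zero_apply, Int.coe_castRingHom]
  rw [Finset.sum_eq_single i] at h2
  · simpa using h2
  · intro b _ hb
    simp [hb]
  · intro h; exact absurd (Finset.mem_univ i) h

end real

section span
variable (M : Matrix ι ι ℤ)

theorem two_isotropic (hM : ∀ i j, M i j = M j i) {u v : ι → ℝ}
    (hu : 0 < bil M u u) (hv : bil M v v < 0) :
    ∃ t₁ t₂ : ℝ, t₁ ≠ t₂ ∧ bil M (u + t₁ • v) (u + t₁ • v) = 0 ∧
      bil M (u + t₂ • v) (u + t₂ • v) = 0 := by
  set A := bil M v v with hA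
  set B := bil M u v with hB
  set C := bil M u u with hC
  have key : ∀ t : ℝ, bil M (u + t • v) (u + t • v) = A * t ^ 2 + 2 * B * t + C := by
    intro t
    rw [bil_add_left, bil_add_right, bil_add_right, bil_smul_left, bil_smul_left, bil_smul_right,
      bil_smul_right, bil_symm M hM v u]
    rw [← hA, ← hB, ← hC]; ring
  have hD : 0 < B ^ 2 - A * C := by nlinarith [sq_nonneg B, mul_pos (neg_pos.mpr hv) hu]
  have hA0 : A ≠ 0 := ne_of_lt hv
  set r := Real.sqrt (B ^ 2 - A * C) with hr
  have hr0 : 0 < r := Real.sqrt_pos.mpr hD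
  have hr2 : r ^ 2 = B ^ 2 - A * C := Real.sq_sqrt hD.le
  refine ⟨(-B + r) / A, (-B - r) / A, ?_, ?_, ?_⟩
  · intro h
    have h2 : (-B + r) = (-B - r) := by
      field_simp at h
      linarith
    linarith
  · rw [key]
    field_simp
    nlinarith [hr2]
  · rw [key]
    field_simp
    nlinarith [hr2]

/-- In a subspace containing a positive and a negative vector, isotropic vectors span. -/
theorem vanish_of_isotropic (hM : ∀ i j, M i j = M j i) (W : Submodule ℝ (ι → ℝ))
    {a b : ι → ℝ} (ha : a ∈ W) (hb : b ∈ W) (haa : 0 < bil M a a) (hbb : bil M b b < 0)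
    (l : (ι → ℝ) →ₗ[ℝ] ℂ) (hl : ∀ y ∈ W, bil M y y = 0 → l y = 0) :
    ∀ w ∈ W, l w = 0 := by
  have pair : ∀ u ∈ W, ∀ v ∈ W, 0 < bil M u u → bil M v v < 0 → l u = 0 ∧ l v = 0 := by
    intro u hu v hv huu hvv
    obtain ⟨t₁, t₂, hne, h1, h2⟩ := two_isotropic M hM huu hvv
    have e1 := hl _ (W.add_mem hu (W.smul_mem t₁ hv)) h1
    have e2 := hl _ (W.add_mem hu (W.smul_mem t₂ hv)) h2
    simp only [map_add, map_smul] at e1 e2
    have e3 : (t₁ - t₂) • l v = 0 := by
      rw [sub_smul]
      calc t₁ • l v - t₂ • l v = (l u + t₁ • l v) - (l u + t₂ • l v) := by abel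
        _ = 0 := by rw [e1, e2, sub_zero]
    have e4 : l v = 0 := (smul_eq_zero.mp e3).resolve_left (sub_ne_zero.mpr hne)
    refine ⟨?_, e4⟩
    rw [e4, smul_zero, add_zero] at e1
    exact e1
  intro w hw
  rcases lt_trichotomy (bil M w w) 0 with h | h | h
  · exact (pair a ha w hw haa h).2
  · exact hl w hw h
  · exact (pair w hw b hb h hbb).1

end span

/-- The rational parametrisation of the isotropic cone from an isotropic vector `e`. -/
def phi {R : Type*} [CommRing R] (M : Matrix ι ι ℤ) (e v : ι → R) : ι → R :=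
  bil M v v • e - (2 * bil M v e) • v

section phi
variable {R : Type*} [CommRing R] (M : Matrix ι ι ℤ)

theorem phi_isotropic (hM : ∀ i j, M i j = M j i) {e : ι → R} (he : bil M e e = 0) (v : ι → R) :
    bil M (phi M e v) (phi M e v) = 0 := by
  unfold phi
  rw [bil_sub_left, bil_sub_right, bil_sub_right, bil_smul_left, bil_smul_left, bil_smul_left,
    bil_smul_left, bil_smul_right, bil_smul_right, bil_smul_right, bil_smul_right, he,
    bil_symm M hM e v]
  ring

theorem phi_of_isotropic {e v : ι → R} (hv : bil M v v = 0) :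
    phi M e v = (-(2 * bil M v e)) • v := by
  unfold phi
  rw [hv, zero_smul, zero_sub, neg_smul]

theorem phi_smul (e v : ι → R) (a : R) : phi M e (a • v) = (a ^ 2) • phi M e v := by
  unfold phi
  rw [bil_smul_left, bil_smul_right, bil_smul_left, smul_sub, smul_smul, smul_smul, smul_smul]
  ring_nf

theorem bil_phi_right (e v y : ι → R) :
    bil M y (phi M e v) = bil M v v * bil M y e - 2 * bil M v e * bil M y v := by
  unfold phi
  rw [bil_sub_right, bil_smul_right, bil_smul_right]

theorem phi_map {S : Type*} [CommRing S] (f : R →+* S) (e v : ι → R) :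
    phi M (fun i => f (e i)) (fun i => f (v i)) = fun i => f (phi M e v i) := by
  ext i
  simp only [phi, bil_map, Pi.sub_apply, Pi.smul_apply, smul_eq_mul, map_sub, map_mul, map_ofNat]

end phi

end Vale.Agent.P290.H726
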