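import Vale.Agent.P290.H726.Dens

open Filter Topology Metric

namespace Vale.Agent.P290.H726

set_option linter.unusedSectionVars false

variable {ι : Type*} [Fintype ι]

/-- real vector as complex vector -/
def cx (y : ι → ℝ) : ι → ℂ := fun i => (y i : ℂ)

/-- `y ↦ y.d` as a real linear map with complex values. -/
noncomputable def pairL (M : Matrix ι ι ℤ) (d : ι → ℂ) : (ι → ℝ) →ₗ[ℝ] ℂ where
  toFun y := bil M (cx y) d
  map_add' x y := by
    have : cx (x + y) = cx x + cx y := by ext i; simp [cx]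
    rw [this, bil_add_left]
  map_smul' a y := by
    have : cx (a • y) = (a : ℂ) • cx y := by ext i; simp [cx]
    rw [this, bil_smul_left]; simp

theorem pairL_apply (M : Matrix ι ι ℤ) (d : ι → ℂ) (y : ι → ℝ) :
    pairL M d y = bil M (cx y) d := rfl

/-- the coordinatewise complex conjugate -/
def cj (y : ι → ℂ) : ι → ℂ := fun i => (starRingEnd ℂ) (y i)

def re (y : ι → ℂ) : ι → ℝ := fun i => (y i).re
def im (y : ι → ℂ) : ι → ℝ := fun i => (y i).im

theorem eq_re_im (y : ι → ℂ) : y = cx (re y) + Complex.I • cx (im y) := by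
  ext i
  simp only [cx, re, im, Pi.add_apply, Pi.smul_apply, smul_eq_mul]
  rw [mul_comm]; exact (Complex.re_add_im (y i)).symm

theorem cj_re_im (y : ι → ℂ) : cj y = cx (re y) - Complex.I • cx (im y) := by
  ext i
  simp only [cx, re, im, cj, Pi.sub_apply, Pi.smul_apply, smul_eq_mul]
  apply Complex.ext <;> simp

theorem bil_cx (M : Matrix ι ι ℤ) (x y : ι → ℝ) : bil M (cx x) (cx y) = ((bil M x y : ℝ) : ℂ) :=
  bil_ofReal M x y

theorem bil_cx_left (M : Matrix ι ι ℤ) (x : ι → ℝ) (d : ι → ℂ) :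
    bil M (cx x) d = ((bil M x (re d) : ℝ) : ℂ) + Complex.I * ((bil M x (im d) : ℝ) : ℂ) := by
  conv_lhs => rw [eq_re_im d]
  rw [bil_add_right, bil_smul_right, bil_cx, bil_cx]

theorem bil_cx_left_eq_zero_iff (M : Matrix ι ι ℤ) (x : ι → ℝ) (d : ι → ℂ) :
    bil M (cx x) d = 0 ↔ bil M x (re d) = 0 ∧ bil M x (im d) = 0 := by
  rw [bil_cx_left]
  constructor
  · intro h
    have h1 := congrArg Complex.re h
    have h2 := congrArg Complex.im h
    simp at h1 h2
    exact ⟨h1, h2⟩
  · rintro ⟨h1, h2⟩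
    rw [h1, h2]; simp

/-- The orthogonal complement of the period plane. -/
noncomputable def WW (M : Matrix ι ι ℤ) (c : ι → ℂ) : Submodule ℝ (ι → ℝ) := LinearMap.ker (pairL M c)

theorem mem_WW (M : Matrix ι ι ℤ) (c : ι → ℂ) (y : ι → ℝ) : y ∈ WW M c ↔ bil M (cx y) c = 0 :=
  LinearMap.mem_ker

/-- the numerical consequences of `c.c = 0` and `c.c̄ = 2 s`. -/
theorem period_relations (M : Matrix ι ι ℤ) (hM : ∀ i j, M i j = M j i) (c : ι → ℂ)
    (hcc : bil M c c = 0) (hpos : 0 < (bil M c (cj c)).re) :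
    ∃ s : ℝ, 0 < s ∧ bil M (re c) (re c) = s ∧ bil M (im c) (im c) = s ∧
      bil M (re c) (im c) = 0 := by
  have h1 : bil M c c = ((bil M (re c) (re c) - bil M (im c) (im c) : ℝ) : ℂ)
      + Complex.I * ((2 * bil M (re c) (im c) : ℝ) : ℂ) := by
    conv_lhs => rw [eq_re_im c]
    rw [bil_add_left, bil_add_right, bil_add_right, bil_smul_left, bil_smul_left, bil_smul_right,
      bil_smul_right, bil_cx, bil_cx, bil_cx, bil_cx, bil_symm M hM (im c) (re c)]
    push_cast
    ring_nf
    rw [Complex.I_sq]; ring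
  have h2 : bil M c (cj c) = ((bil M (re c) (re c) + bil M (im c) (im c) : ℝ) : ℂ) := by
    rw [cj_re_im c]
    conv_lhs => enter [2]; rw [eq_re_im c]
    rw [bil_add_left, bil_sub_right, bil_sub_right, bil_smul_left, bil_smul_left, bil_smul_right,
      bil_smul_right, bil_cx, bil_cx, bil_cx, bil_cx, bil_symm M hM (im c) (re c)]
    push_cast
    ring_nf
    rw [Complex.I_sq]; ring
  rw [h1] at hcc
  rw [h2, Complex.ofReal_re] at hpos
  have e1 := congrArg Complex.re hcc
  have e2 := congrArg Complex.im hcc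
  simp at e1 e2
  refine ⟨bil M (re c) (re c), by linarith, rfl, by linarith, e2⟩

/-- Projection to the complement of the period plane. -/
theorem exists_proj (M : Matrix ι ι ℤ) (hM : ∀ i j, M i j = M j i) (c : ι → ℂ)
    (hcc : bil M c c = 0) (hpos : 0 < (bil M c (cj c)).re) (v : ι → ℝ) :
    ∃ a b s : ℝ, 0 < s ∧ (v - (a • re c + b • im c)) ∈ WW M c ∧
      bil M (v - (a • re c + b • im c)) (v - (a • re c + b • im c)) =
        bil M v v - s * a ^ 2 - s * b ^ 2 := by
  obtain ⟨s, hs, h1, h2, h3⟩ := period_relations M hM c hcc hpos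
  have h3' : bil M (im c) (re c) = 0 := by rw [bil_symm M hM, h3]
  refine ⟨bil M v (re c) / s, bil M v (im c) / s, s, hs, ?_, ?_⟩
  · rw [mem_WW, bil_cx_left_eq_zero_iff]
    constructor
    · rw [bil_sub_left, bil_add_left, bil_smul_left, bil_smul_left, h1, h3']
      field_simp; ring
    · rw [bil_sub_left, bil_add_left, bil_smul_left, bil_smul_left, h2, h3]
      field_simp; ring
  · rw [bil_sub_left, bil_sub_right, bil_sub_right, bil_add_left, bil_add_left, bil_add_right,
      bil_add_right, bil_add_right]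
    simp only [bil_smul_left, bil_smul_right]
    rw [h1, h2, h3, h3', bil_symm M hM (re c) v, bil_symm M hM (im c) v]
    field_simp; ring

/-- a positive vector in the complement of the period plane -/
theorem exists_pos (M : Matrix ι ι ℤ) (c : ι → ℂ)
    (x : Fin 3 → ι → ℝ)
    (hx : ∀ a : Fin 3 → ℝ, a ≠ 0 → 0 < bil M (∑ k, a k • x k) (∑ k, a k • x k)) :
    ∃ w ∈ WW M c, 0 < bil M w w := by
  -- two real equations in three unknowns
  let T : (Fin 3 → ℝ) →ₗ[ℝ] ℂ :=
    (pairL M c).comp (Fintype.linearCombination ℝ x)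
  have hT : ∃ a, a ≠ 0 ∧ T a = 0 := by
    by_contra hcon
    push Not at hcon
    have hinj : Function.Injective T := by
      rw [← LinearMap.ker_eq_bot, LinearMap.ker_eq_bot']
      intro a ha
      by_contra hne
      exact hcon a hne ha
    have := LinearMap.finrank_le_finrank_of_injective hinj
    rw [Module.finrank_fin_fun, Complex.finrank_real_complex] at this
    omega
  obtain ⟨a, ha, hTa⟩ := hT
  refine ⟨∑ k, a k • x k, ?_, hx a ha⟩
  rw [mem_WW, ← pairL_apply]
  have : T a = pairL M c (∑ k, a k • x k) := by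
    simp only [T, LinearMap.comp_apply, Fintype.linearCombination_apply]
  rw [← this]; exact hTa

/-- if there is a nonzero isotropic vector, there is a negative one (nondegenerate form). -/
theorem exists_neg (M : Matrix ι ι ℤ) (hM : ∀ i j, M i j = M j i)
    (hnd : ∀ x : ι → ℝ, (∀ y : ι → ℝ, bil M x y = 0) → x = 0)
    (e : ι → ℝ) (he : e ≠ 0) (hee : bil M e e = 0) :
    ∃ v : ι → ℝ, bil M v v < 0 := by
  by_contra hcon
  push Not at hcon
  apply he
  apply hnd
  intro y
  by_contra hy
  -- b (y + t e, y + t e) = b y y + 2 t b e y ≥ 0 for all t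
  have ht : (-(bil M y y + 1) / (2 * bil M e y)) * bil M e y = -(bil M y y + 1) / 2 := by
    field_simp
  have h := hcon (y + (-(bil M y y + 1) / (2 * bil M e y)) • e)
  rw [bil_add_left, bil_add_right, bil_add_right, bil_smul_left, bil_smul_left, bil_smul_right,
    bil_smul_right, hee, bil_symm M hM y e, ht] at h
  linarith

theorem exists_neg' (M : Matrix ι ι ℤ) (hM : ∀ i j, M i j = M j i)
    (hnd : ∀ x : ι → ℝ, (∀ y : ι → ℝ, bil M x y = 0) → x = 0)
    (e : ι → ℝ) (he : e ≠ 0) (hee : bil M e e = 0) (c : ι → ℂ)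
    (hcc : bil M c c = 0) (hpos : 0 < (bil M c (cj c)).re) :
    ∃ w ∈ WW M c, bil M w w < 0 := by
  obtain ⟨v, hv⟩ := exists_neg M hM hnd e he hee
  obtain ⟨a, b, s, hs, h1, h2⟩ := exists_proj M hM c hcc hpos v
  refine ⟨_, h1, ?_⟩
  rw [h2]
  have := mul_nonneg hs.le (sq_nonneg a)
  have := mul_nonneg hs.le (sq_nonneg b)
  linarith

/-- A real isotropic vector orthogonal to `c` and not orthogonal to `d`, unless `d` is a multiple
of `c`. -/
theorem exists_isotropic (M : Matrix ι ι ℤ) (hM : ∀ i j, M i j = M j i)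
    (hnd : ∀ x : ι → ℝ, (∀ y : ι → ℝ, bil M x y = 0) → x = 0)
    (e : ι → ℝ) (he : e ≠ 0) (hee : bil M e e = 0)
    (x : Fin 3 → ι → ℝ)
    (hx : ∀ a : Fin 3 → ℝ, a ≠ 0 → 0 < bil M (∑ k, a k • x k) (∑ k, a k • x k))
    (c d : ι → ℂ) (hcc : bil M c c = 0) (hpos : 0 < (bil M c (cj c)).re)
    (hcd : bil M c d = 0) (hd : ∀ a : ℂ, d ≠ a • c) :
    ∃ y : ι → ℝ, bil M y y = 0 ∧ bil M (cx y) c = 0 ∧ bil M (cx y) d ≠ 0 := by
  by_contra hcon
  push Not at hcon
  obtain ⟨wp, hwp, hwpp⟩ := exists_pos M c x hx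
  obtain ⟨wn, hwn, hwnn⟩ := exists_neg' M hM hnd e he hee c hcc hpos
  have hW := vanish_of_isotropic M hM (WW M c) hwp hwn hwpp hwnn (pairL M d)
    (fun y hy hyy => hcon y hyy ((mem_WW M c y).mp hy))
  obtain ⟨s, hs, h1, h2, h3⟩ := period_relations M hM c hcc hpos
  have h3' : bil M (im c) (re c) = 0 := by rw [bil_symm M hM, h3]
  -- d' = d - A c
  have hcc' : bil M c (cj c) ≠ 0 := by
    intro h; rw [h] at hpos; simp at hpos
  set A : ℂ := bil M d (cj c) / bil M c (cj c) with hA
  have key : d - A • c = 0 := by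
    set w : ι → ℂ := d - A • c with hw
    have hwc : bil M w c = 0 := by
      rw [hw, bil_sub_left, bil_smul_left, hcc, bil_symm M hM d c, hcd]; ring
    have hwcj : bil M w (cj c) = 0 := by
      rw [hw, bil_sub_left, bil_smul_left, hA, div_mul_cancel₀ _ hcc', sub_self]
    have hwre : bil M w (cx (re c)) = 0 := by
      have : cx (re c) = (1 / 2 : ℂ) • (c + cj c) := by
        rw [cj_re_im c]
        conv_rhs => enter [2, 1]; rw [eq_re_im c]
        ext i; simp; ring
      rw [this, bil_smul_right, bil_add_right, hwc, hwcj]; ring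
    have hwim : bil M w (cx (im c)) = 0 := by
      have : cx (im c) = (1 / (2 * Complex.I) : ℂ) • (c - cj c) := by
        rw [cj_re_im c]
        conv_rhs => enter [2, 1]; rw [eq_re_im c]
        ext i
        simp
        ring_nf
        rw [Complex.I_sq]; ring
      rw [this, bil_smul_right, bil_sub_right, hwc, hwcj]; ring
    have hwW : ∀ v ∈ WW M c, bil M (cx v) w = 0 := by
      intro v hv
      rw [hw, bil_sub_right, bil_smul_right, (mem_WW M c v).mp hv]
      have := hW v hv
      rw [pairL_apply] at this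
      rw [this]; ring
    have hall : ∀ v : ι → ℝ, bil M (cx v) w = 0 := by
      intro v
      obtain ⟨a, b, s', hs', g1, g2⟩ := exists_proj M hM c hcc hpos v
      have h5 := hwW _ g1
      have h6 : cx (v - (a • re c + b • im c)) = cx v - ((a : ℂ) • cx (re c) + (b : ℂ) • cx (im c)) := by
        ext i; simp [cx]
      rw [h6, bil_sub_left, bil_add_left, bil_smul_left, bil_smul_left,
        bil_symm M hM (cx (re c)) w, bil_symm M hM (cx (im c)) w, hwre, hwim] at h5
      simpa using h5
    have hre : re w = 0 := by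
      apply hnd
      intro y
      rw [bil_symm M hM]
      exact ((bil_cx_left_eq_zero_iff M y w).mp (hall y)).1
    have him : im w = 0 := by
      apply hnd
      intro y
      rw [bil_symm M hM]
      exact ((bil_cx_left_eq_zero_iff M y w).mp (hall y)).2
    rw [eq_re_im w, hre, him]
    ext i; simp [cx]
  exact hd A (sub_eq_zero.mp key)

end Vale.Agent.P290.H726
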