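import Vale.Agent.P290.H726.Dens2

open Filter Topology Metric

set_option linter.unusedSectionVars false

namespace Vale.Agent.P290.H726

variable {ι : Type*} [Fintype ι]

/-- integral vector as real / complex vector -/
def zr (x : ι → ℤ) : ι → ℝ := fun i => (x i : ℝ)
def zc (x : ι → ℤ) : ι → ℂ := fun i => (x i : ℂ)

theorem cx_zr (x : ι → ℤ) : cx (zr x) = zc x := by ext i; simp [cx, zr, zc]

theorem bil_zr (M : Matrix ι ι ℤ) (x y : ι → ℤ) :
    bil M (zr x) (zr y) = ((bil M x y : ℤ) : ℝ) := bil_intCast_real M x y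

theorem phi_zr (M : Matrix ι ι ℤ) (e v : ι → ℤ) : phi M (zr e) (zr v) = zr (phi M e v) :=
  phi_map M (Int.castRingHom ℝ) e v

theorem exists_single [DecidableEq ι] (M : Matrix ι ι ℤ) (y z : ι → ℝ) (h : bil M y z ≠ 0) :
    ∃ v : ι → ℤ, bil M y (zr v) ≠ 0 := by
  by_contra hcon
  push Not at hcon
  apply h
  have hz : z = ∑ j, z j • zr (Pi.single j (1 : ℤ)) := by
    ext i
    rw [Finset.sum_apply]
    simp only [Pi.smul_apply, smul_eq_mul, zr]
    rw [Finset.sum_eq_single i]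
    · simp
    · intro b _ hb
      rw [Pi.single_eq_of_ne (Ne.symm hb)]; simp
    · intro h; exact absurd (Finset.mem_univ i) h
  rw [hz]
  have : ∀ s : Finset ι, bil M y (∑ j ∈ s, z j • zr (Pi.single j (1 : ℤ))) = 0 := by
    classical
    intro s
    induction s using Finset.induction_on with
    | empty => simp [bil_zero_right]
    | insert a s ha ih =>
      rw [Finset.sum_insert ha, bil_add_right, ih, bil_smul_right, hcon]; ring
  exact this _

/-- an integral isotropic vector which is not orthogonal to `y`. -/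
theorem exists_isotropic_not_orthogonal [DecidableEq ι] (M : Matrix ι ι ℤ)
    (hM : ∀ i j, M i j = M j i)
    (hnd : ∀ x : ι → ℝ, (∀ y : ι → ℝ, bil M x y = 0) → x = 0)
    (e : ι → ℤ) (he : e ≠ 0) (hee : bil M e e = 0) (y : ι → ℝ) (hy : y ≠ 0) :
    ∃ e' : ι → ℤ, bil M e' e' = 0 ∧ bil M y (zr e') ≠ 0 := by
  by_cases h0 : bil M y (zr e) = 0
  swap
  · exact ⟨e, hee, h0⟩
  have he' : zr e ≠ 0 := by
    intro h
    apply he
    ext i
    have := congrFun h i
    simpa [zr] using this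
  obtain ⟨v, hv1, hv2⟩ : ∃ v : ι → ℤ, bil M (zr e) (zr v) ≠ 0 ∧ bil M y (zr v) ≠ 0 := by
    obtain ⟨z1, hz1⟩ : ∃ z, bil M (zr e) z ≠ 0 := by
      by_contra hcon
      push Not at hcon
      exact he' (hnd _ hcon)
    obtain ⟨z2, hz2⟩ : ∃ z, bil M y z ≠ 0 := by
      by_contra hcon
      push Not at hcon
      exact hy (hnd _ hcon)
    obtain ⟨v1, h1⟩ := exists_single M _ _ hz1
    obtain ⟨v2, h2⟩ := exists_single M _ _ hz2
    by_cases h3 : bil M y (zr v1) = 0
    · by_cases h4 : bil M (zr e) (zr v2) = 0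
      · refine ⟨v1 + v2, ?_, ?_⟩
        · have : zr (v1 + v2) = zr v1 + zr v2 := by ext i; simp [zr]
          rw [this, bil_add_right, h4, add_zero]; exact h1
        · have : zr (v1 + v2) = zr v1 + zr v2 := by ext i; simp [zr]
          rw [this, bil_add_right, h3, zero_add]; exact h2
      · exact ⟨v2, h4, h2⟩
    · exact ⟨v1, h1, h3⟩
  refine ⟨phi M e v, phi_isotropic M hM hee v, ?_⟩
  rw [← phi_zr, bil_phi_right, h0, bil_symm M hM (zr v) (zr e)]
  have := mul_ne_zero (mul_ne_zero two_ne_zero hv1) hv2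
  intro h
  apply this
  linarith

/-- rational approximation -/
noncomputable def flr (y : ι → ℝ) (n : ℕ) : ι → ℤ := fun i => ⌊((n : ℝ) + 1) * y i⌋

theorem tendsto_flr (y : ι → ℝ) :
    Tendsto (fun n : ℕ => (((n : ℝ) + 1)⁻¹) • zr (flr y n)) atTop (𝓝 y) := by
  rw [tendsto_pi_nhds]
  intro i
  have h0 : Tendsto (fun n : ℕ => (((n : ℝ) + 1)⁻¹)) atTop (𝓝 0) := by
    simpa using tendsto_one_div_add_atTop_nhds_zero_nat (𝕜 := ℝ)
  rw [tendsto_iff_norm_sub_tendsto_zero]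
  refine squeeze_zero (fun n => norm_nonneg _) (fun n => ?_) h0
  have hn : (0 : ℝ) < (n : ℝ) + 1 := by positivity
  simp only [Pi.smul_apply, smul_eq_mul, zr, flr]
  rw [Real.norm_eq_abs]
  have e1 : ((n : ℝ) + 1)⁻¹ * (⌊((n : ℝ) + 1) * y i⌋ : ℝ) - y i =
      ((n : ℝ) + 1)⁻¹ * ((⌊((n : ℝ) + 1) * y i⌋ : ℝ) - ((n : ℝ) + 1) * y i) := by
    field_simp
  rw [e1, abs_mul, abs_of_pos (inv_pos.mpr hn)]
  have h1 := Int.floor_le (((n : ℝ) + 1) * y i)
  have h2 := Int.lt_floor_add_one (((n : ℝ) + 1) * y i)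
  have h3 : |(⌊((n : ℝ) + 1) * y i⌋ : ℝ) - ((n : ℝ) + 1) * y i| ≤ 1 := by
    rw [abs_le]; constructor <;> linarith
  calc ((n : ℝ) + 1)⁻¹ * |(⌊((n : ℝ) + 1) * y i⌋ : ℝ) - ((n : ℝ) + 1) * y i|
      ≤ ((n : ℝ) + 1)⁻¹ * 1 := by
        exact mul_le_mul_of_nonneg_left h3 (inv_pos.mpr hn).le
    _ = ((n : ℝ) + 1)⁻¹ := mul_one _

/-- norm bound for the pairing -/
theorem norm_bil_le (M : Matrix ι ι ℤ) (a : ι → ℝ) (w : ι → ℂ) :
    ‖bil M (cx a) w‖ ≤ (∑ i, ∑ j, ‖((M i j : ℤ) : ℂ)‖) * ‖a‖ * ‖w‖ := by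
  unfold bil
  rw [Finset.sum_mul, Finset.sum_mul]
  refine (norm_sum_le _ _).trans (Finset.sum_le_sum fun i _ => ?_)
  rw [Finset.sum_mul, Finset.sum_mul]
  refine (norm_sum_le _ _).trans (Finset.sum_le_sum fun j _ => ?_)
  rw [norm_mul, norm_mul]
  have h1 : ‖cx a i‖ ≤ ‖a‖ := by
    simp only [cx, Complex.norm_real]
    exact norm_le_pi_norm a i
  have h2 : ‖w j‖ ≤ ‖w‖ := norm_le_pi_norm w j
  gcongr

theorem continuous_bil_left (M : Matrix ι ι ℤ) (w : ι → ℝ) :
    Continuous (fun a : ι → ℝ => bil M a w) := by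
  unfold bil
  fun_prop

theorem continuous_bil_self (M : Matrix ι ι ℤ) :
    Continuous (fun a : ι → ℝ => bil M a a) := by
  unfold bil
  fun_prop

theorem continuous_phi (M : Matrix ι ι ℤ) (e : ι → ℝ) :
    Continuous (fun v : ι → ℝ => phi M e v) := by
  unfold phi
  have h1 := continuous_bil_self M
  have h2 := continuous_bil_left M e
  fun_prop

theorem continuous_bil_cx (M : Matrix ι ι ℤ) (d : ι → ℂ) :
    Continuous (fun a : ι → ℝ => bil M (cx a) d) := by
  unfold bil cx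
  fun_prop

theorem hasDerivAt_bil (M : Matrix ι ι ℤ) (a : ι → ℂ) {c : ℂ → ι → ℂ} {c' : ι → ℂ} {z : ℂ}
    (hc : HasDerivAt c c' z) : HasDerivAt (fun z => bil M a (c z)) (bil M a c') z := by
  unfold bil
  have h := hasDerivAt_pi.mp hc
  apply HasDerivAt.fun_sum
  intro i _
  apply HasDerivAt.fun_sum
  intro j _
  exact (h j).const_mul _

theorem hasDerivAt_bil_self (M : Matrix ι ι ℤ) (hM : ∀ i j, M i j = M j i)
    {c : ℂ → ι → ℂ} {c' : ι → ℂ} {z : ℂ}
    (hc : HasDerivAt c c' z) :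
    HasDerivAt (fun z => bil M (c z) (c z)) (2 * bil M (c z) c') z := by
  have h := hasDerivAt_pi.mp hc
  have h1 : HasDerivAt (fun z => bil M (c z) (c z)) (bil M c' (c z) + bil M (c z) c') z := by
    unfold bil
    rw [← Finset.sum_add_distrib]
    apply HasDerivAt.fun_sum
    intro i _
    rw [← Finset.sum_add_distrib]
    apply HasDerivAt.fun_sum
    intro j _
    exact ((h i).const_mul _).mul (h j)
  rw [bil_symm M hM c' (c z)] at h1
  convert h1 using 1
  ring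

end Vale.Agent.P290.H726
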