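import Vale.Agent.P290.H726.Dens3

open Filter Topology Metric

set_option linter.unusedSectionVars false

namespace Vale.Agent.P290.H726

variable {ι : Type*} [Fintype ι]

theorem tendsto_F (M : Matrix ι ι ℤ) (e : ι → ℤ) (y : ι → ℝ) :
    Tendsto (fun n : ℕ => phi M (zr e) ((((n : ℝ) + 1)⁻¹) • zr (flr y n))) atTop
      (𝓝 (phi M (zr e) y)) :=
  ((continuous_phi M (zr e)).tendsto y).comp (tendsto_flr y)

theorem F_eq (M : Matrix ι ι ℤ) (e : ι → ℤ) (y : ι → ℝ) (n : ℕ) :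
    phi M (zr e) ((((n : ℝ) + 1)⁻¹) • zr (flr y n)) =
      ((((n : ℝ) + 1)⁻¹) ^ 2) • zr (phi M e (flr y n)) := by
  rw [phi_smul, phi_zr]

/-- **F2-DENS, analytic half.** -/
theorem exists_zero_of_isotropic [DecidableEq ι] (M : Matrix ι ι ℤ) (hM : ∀ i j, M i j = M j i)
    (hnd : ∀ x : ι → ℝ, (∀ y : ι → ℝ, bil M x y = 0) → x = 0)
    (e : ι → ℤ) (he : e ≠ 0) (hee : bil M e e = 0)
    (c : ℂ → ι → ℂ) (z₀ : ℂ) (hc : ∀ᶠ z in 𝓝 z₀, DifferentiableAt ℂ c z)
    (y : ι → ℝ) (hyy : bil M y y = 0) (hyc : bil M (cx y) (c z₀) = 0)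
    (hyd : bil M (cx y) (deriv c z₀) ≠ 0) (ε : ℝ) (hε : 0 < ε) :
    ∃ z : ℂ, ‖z - z₀‖ < ε ∧ ∃ x : ι → ℤ, x ≠ 0 ∧ bil M x x = 0 ∧ bil M (zc x) (c z) = 0 := by
  have hy0 : y ≠ 0 := by
    rintro rfl
    apply hyd
    have : cx (0 : ι → ℝ) = 0 := by ext i; simp [cx]
    rw [this, bil_zero_left]
  obtain ⟨e', he'e', hye'⟩ := exists_isotropic_not_orthogonal M hM hnd e he hee y hy0
  set Y : ι → ℝ := phi M (zr e') y with hY
  have hYy : Y = (-(2 * bil M y (zr e'))) • y := phi_of_isotropic M hyy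
  have hcxsm : ∀ (a : ℝ) (v : ι → ℝ), cx (a • v) = (a : ℂ) • cx v := by
    intro a v; ext i; simp [cx]
  have hk : ((-(2 * bil M y (zr e')) : ℝ) : ℂ) ≠ 0 := by
    exact_mod_cast neg_ne_zero.mpr (mul_ne_zero two_ne_zero hye')
  have hYc : bil M (cx Y) (c z₀) = 0 := by
    rw [hYy, hcxsm, bil_smul_left, hyc, mul_zero]
  have hYd : bil M (cx Y) (deriv c z₀) ≠ 0 := by
    rw [hYy, hcxsm, bil_smul_left]
    exact mul_ne_zero hk hyd
  have hdc : HasDerivAt c (deriv c z₀) z₀ := hc.self_of_nhds.hasDerivAt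
  have hne : ∀ᶠ z in 𝓝[≠] z₀, bil M (cx Y) (c z) ≠ 0 := by
    have := (hasDerivAt_bil M (cx Y) hdc).eventually_ne (c := bil M (cx Y) (c z₀)) hYd
    rw [hYc] at this
    exact this
  rw [eventually_nhdsWithin_iff] at hne
  obtain ⟨R, hR, hball⟩ := Metric.eventually_nhds_iff_ball.mp (hne.and hc)
  set r : ℝ := min (R / 2) (ε / 2) with hr
  have hr0 : 0 < r := by positivity
  have hrR : r < R := lt_of_le_of_lt (min_le_left _ _) (by linarith)
  have hrε : r < ε := lt_of_le_of_lt (min_le_right _ _) (by linarith)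
  have hsub : closedBall z₀ r ⊆ ball z₀ R := closedBall_subset_ball hrR
  have hcont : ContinuousOn c (closedBall z₀ r) := fun z hz =>
    (hball z (hsub hz)).2.continuousAt.continuousWithinAt
  have hdiff : ∀ z ∈ closedBall z₀ r, DifferentiableAt ℂ c z := fun z hz => (hball z (hsub hz)).2
  -- lower bound on the sphere
  obtain ⟨δ, hδ, hδs⟩ : ∃ δ > 0, ∀ z ∈ sphere z₀ r, δ ≤ ‖bil M (cx Y) (c z)‖ := by
    have hcf : ContinuousOn (fun z => ‖bil M (cx Y) (c z)‖) (sphere z₀ r) := by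
      intro z hz
      have hz' := hdiff z (sphere_subset_closedBall hz)
      exact (hasDerivAt_bil M (cx Y) hz'.hasDerivAt).continuousAt.norm.continuousWithinAt
    obtain ⟨zm, hzm, hmin⟩ := (isCompact_sphere z₀ r).exists_isMinOn
      (NormedSpace.sphere_nonempty.mpr hr0.le) hcf
    refine ⟨‖bil M (cx Y) (c zm)‖, ?_, fun z hz => hmin hz⟩
    rw [gt_iff_lt, norm_pos_iff]
    apply (hball zm (hsub (sphere_subset_closedBall hzm))).1
    intro h
    rw [Set.mem_singleton_iff] at h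
    rw [h, mem_sphere, dist_self] at hzm
    exact hr0.ne hzm
  -- upper bound for c
  obtain ⟨C, hC⟩ := (isCompact_closedBall z₀ r).exists_bound_of_continuousOn hcont
  set K : ℝ := ∑ i, ∑ j, ‖((M i j : ℤ) : ℂ)‖ with hK
  have hC0 : 0 ≤ C := (norm_nonneg _).trans (hC z₀ (mem_closedBall_self hr0.le))
  have hK0 : 0 ≤ K := by positivity
  set F : ℕ → ι → ℝ := fun n => phi M (zr e') ((((n : ℝ) + 1)⁻¹) • zr (flr y n)) with hF
  have hFt : Tendsto F atTop (𝓝 Y) := tendsto_F M e' y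
  have hcxsub : ∀ a b : ι → ℝ, cx (a - b) = cx a - cx b := by
    intro a b; ext i; simp [cx]
  have hclose : ∀ n, ∀ z ∈ closedBall z₀ r,
      ‖bil M (cx (F n)) (c z) - bil M (cx Y) (c z)‖ ≤ K * ‖F n - Y‖ * C := by
    intro n z hz
    rw [← bil_sub_left, ← hcxsub]
    refine (norm_bil_le M _ _).trans ?_
    exact mul_le_mul_of_nonneg_left (hC z hz) (by positivity)
  have hev1 : ∀ᶠ n in atTop, K * ‖F n - Y‖ * C < δ / 8 := by
    have h1 : Tendsto (fun n => K * ‖F n - Y‖ * C) atTop (𝓝 (K * 0 * C)) :=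
      ((tendsto_iff_norm_sub_tendsto_zero.mp hFt).const_mul K).mul_const C
    rw [mul_zero, zero_mul] at h1
    exact h1.eventually_lt_const (by positivity)
  have hev2 : ∀ᶠ n in atTop, bil M (cx (F n)) (deriv c z₀) ≠ 0 := by
    have h1 : Tendsto (fun n => bil M (cx (F n)) (deriv c z₀)) atTop
        (𝓝 (bil M (cx Y) (deriv c z₀))) :=
      ((continuous_bil_cx M (deriv c z₀)).tendsto Y).comp hFt
    exact h1.eventually_ne hYd
  obtain ⟨n, hn1, hn2⟩ := (hev1.and hev2).exists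
  have hz0 : z₀ ∈ closedBall z₀ r := mem_closedBall_self hr0.le
  set f : ℂ → ℂ := fun z => bil M (cx (F n)) (c z) with hf
  have hfd : ∀ z ∈ closedBall z₀ r, DifferentiableAt ℂ f z := fun z hz =>
    (hasDerivAt_bil M (cx (F n)) (hdiff z hz).hasDerivAt).differentiableAt
  have hdcc : DiffContOnCl ℂ f (ball z₀ r) := by
    refine ⟨fun z hz => (hfd z (ball_subset_closedBall hz)).differentiableWithinAt, ?_⟩
    rw [closure_ball z₀ hr0.ne']
    exact fun z hz => (hfd z hz).continuousAt.continuousWithinAt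
  have hf0 : ‖f z₀‖ < δ / 8 := by
    have := hclose n z₀ hz0
    rw [hYc, sub_zero] at this
    exact this.trans_lt hn1
  have hsph : ∀ z ∈ sphere z₀ r, δ / 2 ≤ ‖f z - f z₀‖ := by
    intro z hz
    have h1 := hδs z hz
    have h2 := hclose n z (sphere_subset_closedBall hz)
    have h3 : ‖bil M (cx Y) (c z)‖ ≤ ‖f z - f z₀‖ + ‖f z₀‖ +
        ‖bil M (cx (F n)) (c z) - bil M (cx Y) (c z)‖ := by
      have h4 : ‖bil M (cx Y) (c z)‖ = ‖((f z - f z₀) + f z₀) -
        (bil M (cx (F n)) (c z) - bil M (cx Y) (c z))‖ := by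
        congr 1
        simp only [hf]; ring
      calc ‖bil M (cx Y) (c z)‖ = ‖((f z - f z₀) + f z₀) -
            (bil M (cx (F n)) (c z) - bil M (cx Y) (c z))‖ := h4
        _ ≤ ‖(f z - f z₀) + f z₀‖ + ‖bil M (cx (F n)) (c z) - bil M (cx Y) (c z)‖ :=
            norm_sub_le _ _
        _ ≤ ‖f z - f z₀‖ + ‖f z₀‖ + ‖bil M (cx (F n)) (c z) - bil M (cx Y) (c z)‖ := by
            have := norm_add_le (f z - f z₀) (f z₀)
            linarith
    linarith
  have hfreq : ∃ᶠ z in 𝓝 z₀, f z ≠ f z₀ := by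
    intro hcon
    have hconst : f =ᶠ[𝓝 z₀] fun _ => f z₀ := by
      filter_upwards [hcon] with z hz
      simpa using hz
    have h1 : HasDerivAt f 0 z₀ := (hasDerivAt_const z₀ (f z₀)).congr_of_eventuallyEq hconst
    have h2 := hasDerivAt_bil M (cx (F n)) hdc
    exact hn2 (h2.unique h1)
  have himg := hdcc.ball_subset_image_closedBall hr0 hsph hfreq
  have h0mem : (0 : ℂ) ∈ ball (f z₀) (δ / 2 / 2) := by
    rw [mem_ball, dist_eq_norm, zero_sub, norm_neg]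
    linarith
  obtain ⟨z, hz, hfz⟩ := himg h0mem
  refine ⟨z, ?_, phi M e' (flr y n), ?_, phi_isotropic M hM he'e' _, ?_⟩
  · have : dist z z₀ ≤ r := hz
    rw [dist_eq_norm] at this
    exact this.trans_lt hrε
  · intro hx
    apply hn2
    have : F n = 0 := by
      simp only [hF]
      rw [F_eq, hx]
      ext i; simp [zr]
    rw [this]
    have : cx (0 : ι → ℝ) = 0 := by ext i; simp [cx]
    rw [this, bil_zero_left]
  · have h1 : f z = (((((n : ℝ) + 1)⁻¹) ^ 2 : ℝ) : ℂ) * bil M (zc (phi M e' (flr y n))) (c z) := by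
      simp only [hf, hF]
      rw [F_eq, hcxsm, bil_smul_left, cx_zr]
    rw [h1] at hfz
    have hne0 : (((((n : ℝ) + 1)⁻¹) ^ 2 : ℝ) : ℂ) ≠ 0 := by
      have : (0 : ℝ) < (n : ℝ) + 1 := by positivity
      exact_mod_cast (by positivity : (0 : ℝ) < (((n : ℝ) + 1)⁻¹) ^ 2).ne'
    exact (mul_eq_zero.mp hfz).resolve_left hne0

/-- **F2-DENS.** Integral isotropic vectors orthogonal to nearby periods.
`bil M x y = ∑ i, ∑ j, M i j * x i * y j`. -/
theorem dens [DecidableEq ι] (M : Matrix ι ι ℤ) (hM : ∀ i j, M i j = M j i)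
    (hnd : ∀ x : ι → ℤ, (∀ y : ι → ℤ, bil M x y = 0) → x = 0)
    (e : ι → ℤ) (he : e ≠ 0) (hee : bil M e e = 0)
    (x : Fin 3 → ι → ℤ)
    (hx : ∀ a : Fin 3 → ℝ, a ≠ 0 →
      0 < ∑ k, ∑ l, a k * a l * ((bil M (x k) (x l) : ℤ) : ℝ))
    (c : ℂ → ι → ℂ) (z₀ : ℂ) (hc : ∀ᶠ z in 𝓝 z₀, DifferentiableAt ℂ c z)
    (hcc : ∀ᶠ z in 𝓝 z₀, bil M (c z) (c z) = 0)
    (hpos : 0 < (bil M (c z₀) (fun i => (starRingEnd ℂ) (c z₀ i))).re)
    (hd : ∀ a : ℂ, deriv c z₀ ≠ a • c z₀) (ε : ℝ) (hε : 0 < ε) :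
    ∃ z : ℂ, ‖z - z₀‖ < ε ∧ ∃ x : ι → ℤ, x ≠ 0 ∧ bil M x x = 0 ∧
      bil M (fun i => ((x i : ℤ) : ℂ)) (c z) = 0 := by
  have hndR := nondeg_real M hM hnd
  have hdc : HasDerivAt c (deriv c z₀) z₀ := hc.self_of_nhds.hasDerivAt
  have hcd : bil M (c z₀) (deriv c z₀) = 0 := by
    have h1 := hasDerivAt_bil_self M hM hdc
    have h2 : HasDerivAt (fun z => bil M (c z) (c z)) 0 z₀ :=
      (hasDerivAt_const z₀ (0 : ℂ)).congr_of_eventuallyEq hcc
    have h3 := h1.unique h2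
    exact (mul_eq_zero.mp h3).resolve_left two_ne_zero
  have he' : zr e ≠ 0 := by
    intro h
    apply he
    ext i
    have := congrFun h i
    simpa [zr] using this
  have hee' : bil M (zr e) (zr e) = 0 := by rw [bil_zr, hee]; simp
  have hx' : ∀ a : Fin 3 → ℝ, a ≠ 0 →
      0 < bil M (∑ k, a k • zr (x k)) (∑ k, a k • zr (x k)) := by
    intro a ha
    have h := hx a ha
    have e1 : ∀ v : ι → ℝ, bil M (∑ k, a k • zr (x k)) v = ∑ k, a k * bil M (zr (x k)) v := by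
      intro v
      simp only [Fin.sum_univ_three, bil_add_left, bil_smul_left]
    have e2 : ∀ v : ι → ℝ, bil M v (∑ k, a k • zr (x k)) = ∑ k, a k * bil M v (zr (x k)) := by
      intro v
      simp only [Fin.sum_univ_three, bil_add_right, bil_smul_right]
    rw [e1]
    calc (0 : ℝ) < ∑ k, ∑ l, a k * a l * ((bil M (x k) (x l) : ℤ) : ℝ) := h
      _ = ∑ k, a k * bil M (zr (x k)) (∑ l, a l • zr (x l)) := by
        refine Finset.sum_congr rfl fun k _ => ?_
        rw [e2, Finset.mul_sum]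
        refine Finset.sum_congr rfl fun l _ => ?_
        rw [bil_zr]; ring
  obtain ⟨y, hyy, hyc, hyd⟩ := exists_isotropic M hM hndR (zr e) he' hee' (fun k => zr (x k)) hx'
    (c z₀) (deriv c z₀) hcc.self_of_nhds hpos hcd hd
  exact exists_zero_of_isotropic M hM hndR e he hee c z₀ hc y hyy hyc hyd ε hε

end Vale.Agent.P290.H726
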