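import Vale.Agent.P290.H726.Dens4

open Filter Topology Metric

set_option linter.unusedSectionVars false

namespace Vale.Agent.P290.H726

variable {ι : Type*} [Fintype ι] {Λ : Type*} [AddCommGroup Λ]

/-- Gram matrix of an integral bilinear form in a basis. -/
noncomputable def gram (B : Λ →+ Λ →+ ℤ) (bs : Module.Basis ι ℤ Λ) : Matrix ι ι ℤ :=
  fun i j => B (bs i) (bs j)

theorem gram_bil (B : Λ →+ Λ →+ ℤ) (bs : Module.Basis ι ℤ Λ) (x y : Λ) :
    B x y = bil (gram B bs) (bs.repr x) (bs.repr y) := by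
  conv_lhs => rw [← bs.sum_repr x, ← bs.sum_repr y]
  unfold bil gram
  have h1 : B (∑ i, (bs.repr x) i • bs i) = ∑ i, B ((bs.repr x) i • bs i) := map_sum B _ _
  rw [h1, AddMonoidHom.finsetSum_apply]
  refine Finset.sum_congr rfl fun i _ => ?_
  rw [map_sum]
  refine Finset.sum_congr rfl fun j _ => ?_
  rw [map_zsmul, map_zsmul, AddMonoidHom.zsmul_apply]
  simp only [smul_eq_mul, Int.cast_id]
  ring

theorem gram_bil' (B : Λ →+ Λ →+ ℤ) (bs : Module.Basis ι ℤ Λ) (x y : ι → ℤ) :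
    B (∑ i, x i • bs i) (∑ i, y i • bs i) = bil (gram B bs) x y := by
  rw [gram_bil B bs, bs.repr_sum_self, bs.repr_sum_self]

/-- **F2-DENS in lattice form.** The period vector `c z` has coordinates `c z i` in the basis `bs`;
`∑ i, B(n, bs i) c z i` is the period of `n`. -/
theorem dens_lattice [DecidableEq ι] (bs : Module.Basis ι ℤ Λ) (B : Λ →+ Λ →+ ℤ)
    (hB : ∀ x y, B x y = B y x) (hnd : ∀ x, (∀ y, B x y = 0) → x = 0)
    (e : Λ) (he : e ≠ 0) (hee : B e e = 0)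
    (x : Fin 3 → Λ)
    (hx : ∀ a : Fin 3 → ℝ, a ≠ 0 → 0 < ∑ k, ∑ l, a k * a l * ((B (x k) (x l) : ℤ) : ℝ))
    (c : ℂ → ι → ℂ) (z₀ : ℂ) (hc : ∀ᶠ z in 𝓝 z₀, DifferentiableAt ℂ c z)
    (hcc : ∀ᶠ z in 𝓝 z₀, ∑ i, ∑ j, ((B (bs i) (bs j) : ℤ) : ℂ) * c z i * c z j = 0)
    (hpos : 0 < (∑ i, ∑ j, ((B (bs i) (bs j) : ℤ) : ℂ) * c z₀ i * (starRingEnd ℂ) (c z₀ j)).re)
    (hd : ∀ a : ℂ, deriv c z₀ ≠ a • c z₀) (ε : ℝ) (hε : 0 < ε) :
    ∃ z : ℂ, ‖z - z₀‖ < ε ∧ ∃ n : Λ, n ≠ 0 ∧ B n n = 0 ∧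
      ∑ i, ((B n (bs i) : ℤ) : ℂ) * c z i = 0 := by
  obtain ⟨z, hz, v, hv0, hvv, hvc⟩ := dens (gram B bs) (fun i j => hB _ _)
    (fun x hx => by
      have h1 : (∑ i, x i • bs i) = 0 := by
        apply hnd
        intro y
        have h2 : y = ∑ i, (bs.repr y i) • bs i := (bs.sum_repr y).symm
        rw [h2, gram_bil' B bs]
        exact hx _
      have h3 : bs.repr (∑ i, x i • bs i) = 0 := by rw [h1, map_zero]
      rw [← bs.repr_sum_self x, h3]
      rfl)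
    (bs.repr e) (fun h => he (by
      have : bs.repr e = 0 := by
        ext i; exact congrFun h i
      simpa using this))
    (by rw [← gram_bil]; exact hee)
    (fun k => bs.repr (x k))
    (fun a ha => by
      have := hx a ha
      simpa only [gram_bil B bs] using this)
    c z₀ hc hcc hpos hd ε hε
  refine ⟨z, hz, ∑ i, v i • bs i, ?_, ?_, ?_⟩
  · intro h
    apply hv0
    have h3 : bs.repr (∑ i, v i • bs i) = 0 := by rw [h, map_zero]
    rw [← bs.repr_sum_self v, h3]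
    rfl
  · rw [gram_bil' B bs, hvv]
  · unfold bil gram at hvc
    rw [Finset.sum_comm] at hvc
    rw [← hvc]
    refine Finset.sum_congr rfl fun j _ => ?_
    have h1 : B (∑ i, v i • bs i) = ∑ i, B (v i • bs i) := map_sum B _ _
    rw [h1, AddMonoidHom.finsetSum_apply]
    push_cast
    rw [Finset.sum_mul]
    refine Finset.sum_congr rfl fun i _ => ?_
    rw [map_zsmul, AddMonoidHom.zsmul_apply]
    simp only [smul_eq_mul]
    push_cast
    ring

end Vale.Agent.P290.H726
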